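import Mathlib
import Vale.Agent.P243.Defs
import Vale.Agent.P243.Defs2
import Vale.Agent.P243.PhiFinal

open MeasureTheory Set Vale.Agent.P243

namespace Vale.Agent.Results.P243.AllBodies

/-- Let `K` be an arbitrary convex body in a 3-dimensional Euclidean space `E`, covered by the
`m * n` cylinders `B j k + ℝ v j` (`v j` unit vectors, so at most `m` axis directions occur; the
bases `B j k` are arbitrary subsets of the plane orthogonal to `v j`, area being planar Lebesgue
outer measure).  Write `b j = min 1 (relArea K (v j) (B j))` for the (truncated) total relative base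
area used in direction `v j`.  Then

* `1 + 2 ∑ (b j) ^ (3/2) ≤ 3 ∑ b j`, a sharpening of the Bezdek-Litvak inequality `1 ≤ 3 ∑ b j`;
* `1 - m x ^ 3 ≤ 3 (1 - x) R` for all `0 ≤ x ≤ 1`, where `R` is the directionwise relative area;
* `R ≥ 1/2`, `101/225`, `23/54` if `m ≤ 2`, `3`, `4`, and `R ≥ 1/3 + 2 / (9 √(3 m))` in general;
* the same lower bounds hold for (sum of the base areas) / (smallest shadow area of `K`). -/
theorem result {E : Type*} [NormedAddCommGroup E] [InnerProductSpace ℝ E] [FiniteDimensional ℝ E]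
    [MeasurableSpace E] [BorelSpace E] (hE : Module.finrank ℝ E = 3)
    {K : Set E} (hK : Convex ℝ K) (hKc : IsCompact K) (hKi : (interior K).Nonempty)
    {m n : ℕ} (v : Fin m → E) (hv : ∀ j, ‖v j‖ = 1)
    (B : ∀ j, Fin n → Set (plane (v j)))
    (hcov : K ⊆ ⋃ j, ⋃ k, cylinder (v j) (B j k)) :
    (1 + 2 * ∑ j, (min 1 (relArea K (v j) (B j))) ^ (3 / 2 : ℝ)
        ≤ 3 * ∑ j, min 1 (relArea K (v j) (B j))) ∧
    (∀ x : ℝ, 0 ≤ x → x ≤ 1 →
      ENNReal.ofReal (1 - m * x ^ 3) ≤ ENNReal.ofReal (3 * (1 - x)) * relSum K v B) ∧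
    ((m ≤ 2 → ENNReal.ofReal (1 / 2) ≤ relSum K v B) ∧
      (m ≤ 3 → ENNReal.ofReal (101 / 225) ≤ relSum K v B) ∧
      (m ≤ 4 → ENNReal.ofReal (23 / 54) ≤ relSum K v B) ∧
      ENNReal.ofReal (1 / 3 + 2 / (9 * √(3 * m))) ≤ relSum K v B) ∧
    ((m ≤ 2 → ENNReal.ofReal (1 / 2) * minShadow K ≤ totalArea v B) ∧
      (m ≤ 3 → ENNReal.ofReal (101 / 225) * minShadow K ≤ totalArea v B) ∧
      (m ≤ 4 → ENNReal.ofReal (23 / 54) * minShadow K ≤ totalArea v B) ∧
      ENNReal.ofReal (1 / 3 + 2 / (9 * √(3 * m))) * minShadow K ≤ totalArea v B) := by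
  have hv0 : ∀ j, v j ≠ 0 := by
    intro j h
    have := hv j
    rw [h, norm_zero] at this
    exact zero_ne_one this
  obtain ⟨h1, h2⟩ := phi_main hE hK hKc hKi v hv0 B hcov
  have h3 := consts_of_lin (R := relSum K v B) h2
  have h4 := minShadow_mul_relSum_le hKc hKi v hv B
  have tr : ∀ c : ENNReal, c ≤ relSum K v B → c * minShadow K ≤ totalArea v B := by
    intro c hc
    calc c * minShadow K ≤ relSum K v B * minShadow K := by gcongr
      _ = minShadow K * relSum K v B := mul_comm _ _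
      _ ≤ _ := h4
  exact ⟨h1, h2, h3, fun hm => tr _ (h3.1 hm), fun hm => tr _ (h3.2.1 hm),
    fun hm => tr _ (h3.2.2.1 hm), tr _ h3.2.2.2⟩

end Vale.Agent.Results.P243.AllBodies
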