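import Mathlib
import Vale.Agent.P243.Defs
import Vale.Agent.P243.Coplanar

open MeasureTheory Set Vale.Agent.P243

namespace Vale.Agent.Results.P243.CoplanarAxes

/-- Let `K` be a convex body in a 3-dimensional Euclidean space `E`, covered by finitely many
cylinders `B i + ℝ u i` (`u i` a unit vector, `B i` an arbitrary subset of the plane orthogonal to
`u i`, its area being planar Lebesgue (outer) measure), and suppose that all axis directions `u i`
are orthogonal to one fixed vector `n ≠ 0`, i.e. all axes are parallel to one plane.  Then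
`∑ |B i|` is at least half of the smallest area of an orthogonal projection of `K` along a unit
vector of that plane, hence at least half of the smallest area of all orthogonal projections of `K`
to planes (Bang's half-area inequality). -/
theorem result {E : Type*} [NormedAddCommGroup E] [InnerProductSpace ℝ E] [FiniteDimensional ℝ E]
    [MeasurableSpace E] [BorelSpace E] (hE : Module.finrank ℝ E = 3)
    {K : Set E} (hK : Convex ℝ K) (hKc : IsCompact K) (hKi : (interior K).Nonempty)
    {n : E} (hn : n ≠ 0) {m : ℕ} (u : Fin m → E) (hu : ∀ i, ‖u i‖ = 1)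
    (hun : ∀ i, inner ℝ (u i) n = 0)
    (B : ∀ i, Set (plane (u i)))
    (hcov : K ⊆ ⋃ i, cylinder (u i) (B i)) :
    (⨅ (w : E) (_ : ‖w‖ = 1) (_ : inner ℝ w n = 0), area (shadow K w)) / 2 ≤ ∑ i, area (B i) ∧
      (⨅ (w : E) (_ : ‖w‖ = 1), area (shadow K w)) / 2 ≤ ∑ i, area (B i) := by
  have h1 : (⨅ (w : E) (_ : ‖w‖ = 1) (_ : inner ℝ w n = 0), area (shadow K w)) / 2
      ≤ ∑ i, area (B i) :=
    Vale.Agent.P243.coplanar hE hK hKc hKi hn u hu hun B (by
      intro x hx
      obtain ⟨i, hi⟩ := mem_iUnion.1 (hcov hx)
      exact ⟨i, hi⟩)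
  refine ⟨h1, le_trans ?_ h1⟩
  apply ENNReal.div_le_div_right
  exact iInf_mono (fun w => iInf_mono (fun _ => le_iInf (fun _ => le_rfl)))

end Vale.Agent.Results.P243.CoplanarAxes
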