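import Mathlib
import Vale.Agent.P243.Defs
import Vale.Agent.P243.SymFinal

open MeasureTheory Set Vale.Agent.P243

namespace Vale.Agent.Results.P243.SymmetricBodies

/-- Let `K` be a centrally symmetric convex body (centre `c`) in a 3-dimensional Euclidean space
`E`, covered by finitely many cylinders `B i + ℝ u i` (`u i` a unit vector, `B i` an arbitrary
subset of the plane orthogonal to `u i`, its area being planar Lebesgue (outer) measure); there is
no restriction on the number of cylinders or on their directions.  Then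

* the directionwise relative area `∑ |B i| / |shadow of K along u i|` is at least `5/12`;
* `∑ |B i|` is at least `5/12` of the smallest area of an orthogonal projection of `K` to a plane. -/
theorem result {E : Type*} [NormedAddCommGroup E] [InnerProductSpace ℝ E] [FiniteDimensional ℝ E]
    [MeasurableSpace E] [BorelSpace E] (hE : Module.finrank ℝ E = 3)
    {K : Set E} (hK : Convex ℝ K) (hKc : IsCompact K) (hKi : (interior K).Nonempty)
    (c : E) (hsym : ∀ x ∈ K, (2 : ℝ) • c - x ∈ K)
    {m : ℕ} (u : Fin m → E) (hu : ∀ i, ‖u i‖ = 1)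
    (B : ∀ i, Set (plane (u i)))
    (hcov : K ⊆ ⋃ i, cylinder (u i) (B i)) :
    (5 / 12 : ENNReal) ≤ ∑ i, area (B i) / area (shadow K (u i)) ∧
      5 / 12 * (⨅ (w : E) (_ : ‖w‖ = 1), area (shadow K w)) ≤ ∑ i, area (B i) := by
  have hu0 : ∀ i, u i ≠ 0 := by
    intro i h
    have := hu i
    rw [h, norm_zero] at this
    exact zero_ne_one this
  have h1 : (5 / 12 : ENNReal) ≤ ∑ i, area (B i) / area (shadow K (u i)) :=
    Vale.Agent.P243.sym_centre hE hK hKc hKi c hsym u hu0 B hcov
  refine ⟨h1, ?_⟩
  set A : ENNReal := ⨅ (w : E) (_ : ‖w‖ = 1), area (shadow K w) with hA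
  have hAle : ∀ i, A ≤ area (shadow K (u i)) := fun i => iInf₂_le (u i) (hu i)
  have h2 : (5 / 12 : ENNReal) ≤ (∑ i, area (B i)) / A := by
    refine h1.trans ?_
    rw [ENNReal.div_eq_inv_mul, Finset.mul_sum]
    refine Finset.sum_le_sum (fun i _ => ?_)
    rw [← ENNReal.div_eq_inv_mul]
    exact ENNReal.div_le_div_left (hAle i) _
  by_cases hA0 : A = 0
  · rw [hA0]; simp
  by_cases hX : (∑ i, area (B i)) = ⊤
  · rw [hX]; exact le_top
  rw [ENNReal.le_div_iff_mul_le (Or.inl hA0) (Or.inr hX)] at h2
  exact h2

end Vale.Agent.Results.P243.SymmetricBodies
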