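import Mathlib
import Vale.Agent.P243.Defs
import Vale.Agent.P243.Defs2
import Vale.Agent.Results.P243.AllBodies
import Vale.Agent.Results.P243.CoplanarAxes
import Vale.Agent.Results.P243.SymmetricBodies

open MeasureTheory Set Vale.Agent.P243

namespace Vale.Agent.Results.P243.AllParts

/-- Conjunction of the three results on Bang's cylinder covering problem for a convex body `K` in a
3-dimensional Euclidean space: (A) all bodies, bounds in terms of the number `m` of axis directions;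
(B) all axes parallel to one plane: the sharp constant `1/2`; (C) centrally symmetric bodies:
the constant `5/12`. -/
theorem result {E : Type*} [NormedAddCommGroup E] [InnerProductSpace ℝ E] [FiniteDimensional ℝ E]
    [MeasurableSpace E] [BorelSpace E] (hE : Module.finrank ℝ E = 3)
    {K : Set E} (hK : Convex ℝ K) (hKc : IsCompact K) (hKi : (interior K).Nonempty) :
    (∀ (m n : ℕ) (v : Fin m → E), (∀ j, ‖v j‖ = 1) →
      ∀ B : ∀ j, Fin n → Set (plane (v j)), K ⊆ ⋃ j, ⋃ k, cylinder (v j) (B j k) →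
      (1 + 2 * ∑ j, (min 1 (relArea K (v j) (B j))) ^ (3 / 2 : ℝ)
          ≤ 3 * ∑ j, min 1 (relArea K (v j) (B j))) ∧
      (∀ x : ℝ, 0 ≤ x → x ≤ 1 →
        ENNReal.ofReal (1 - m * x ^ 3) ≤ ENNReal.ofReal (3 * (1 - x)) * relSum K v B) ∧
      ((m ≤ 2 → ENNReal.ofReal (1 / 2) ≤ relSum K v B) ∧
        (m ≤ 3 → ENNReal.ofReal (101 / 225) ≤ relSum K v B) ∧
        (m ≤ 4 → ENNReal.ofReal (23 / 54) ≤ relSum K v B) ∧
        ENNReal.ofReal (1 / 3 + 2 / (9 * √(3 * m))) ≤ relSum K v B) ∧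
      ((m ≤ 2 → ENNReal.ofReal (1 / 2) * minShadow K ≤ totalArea v B) ∧
        (m ≤ 3 → ENNReal.ofReal (101 / 225) * minShadow K ≤ totalArea v B) ∧
        (m ≤ 4 → ENNReal.ofReal (23 / 54) * minShadow K ≤ totalArea v B) ∧
        ENNReal.ofReal (1 / 3 + 2 / (9 * √(3 * m))) * minShadow K ≤ totalArea v B)) ∧
    (∀ n : E, n ≠ 0 → ∀ (m : ℕ) (u : Fin m → E), (∀ i, ‖u i‖ = 1) →
      (∀ i, inner ℝ (u i) n = 0) →
      ∀ B : ∀ i, Set (plane (u i)), K ⊆ ⋃ i, cylinder (u i) (B i) →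
      (⨅ (w : E) (_ : ‖w‖ = 1) (_ : inner ℝ w n = 0), area (shadow K w)) / 2 ≤ ∑ i, area (B i) ∧
        (⨅ (w : E) (_ : ‖w‖ = 1), area (shadow K w)) / 2 ≤ ∑ i, area (B i)) ∧
    (∀ c : E, (∀ x ∈ K, (2 : ℝ) • c - x ∈ K) → ∀ (m : ℕ) (u : Fin m → E), (∀ i, ‖u i‖ = 1) →
      ∀ B : ∀ i, Set (plane (u i)), K ⊆ ⋃ i, cylinder (u i) (B i) →
      (5 / 12 : ENNReal) ≤ ∑ i, area (B i) / area (shadow K (u i)) ∧
        5 / 12 * (⨅ (w : E) (_ : ‖w‖ = 1), area (shadow K w)) ≤ ∑ i, area (B i)) :=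
  ⟨fun _ _ v hv B hcov => AllBodies.result hE hK hKc hKi v hv B hcov,
   fun _ hn _ u hu hun B hcov => CoplanarAxes.result hE hK hKc hKi hn u hu hun B hcov,
   fun c hsym _ u hu B hcov => SymmetricBodies.result hE hK hKc hKi c hsym u hu B hcov⟩

end Vale.Agent.Results.P243.AllParts
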